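import Mathlib

/-!
# Row (A): the double sum over `Z_s x Z_t`

Pure algebra: from the square relations and the values of the exponentials, the sum of the
local numbers `I i j` is `2 pi I` times an odd integer.
-/

namespace Vale.Agent.P305.H136.DS

open Finset Complex

/-- If `exp x = -1` then `x = (2 k + 1) pi I`. -/
theorem exp_eq_neg_one {x : ℂ} (h : exp x = -1) :
    ∃ k : ℤ, x = (2 * k + 1) * (Real.pi * I) := by
  have h2 : exp x = exp (Real.pi * I) := by rw [h, exp_pi_mul_I]
  obtain ⟨k, hk⟩ := Complex.exp_eq_exp_iff_exists_int.1 h2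
  exact ⟨k, by rw [hk]; ring⟩

theorem exists_ne_zero {s t : ℕ} [NeZero s] [NeZero t] (hs : Odd s) (ht : Odd t)
    (q : ZMod s → ZMod t → ℂ) (H V : ZMod s → ZMod t → ℂ → ℂ)
    (hH : ∀ i j, H i j (q (i + 1) j) + H (i + 1) j (q i (j + 1)) =
      H i j (q (i + 1) (j + 1)) + H (i + 1) j (q i j))
    (hV : ∀ i j, V i j (q i (j + 1)) + V i (j + 1) (q (i + 1) j) =
      V i j (q (i + 1) (j + 1)) + V i (j + 1) (q i j))
    (eH : ∀ i j x, x = q (i + 1) j ∨ x = q (i - 1) j →
      exp (H i j x) = (q i (j + 1) - x) / (q i j - x))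
    (eV : ∀ i j x, x = q i (j + 1) ∨ x = q i (j - 1) →
      exp (V i j x) = (q (i + 1) j - x) / (q i j - x))
    (n1 : ∀ i j, q (i + 1) j ≠ q i j) (n2 : ∀ i j, q i (j + 1) ≠ q i j)
    (n3 : ∀ i j, q (i + 1) (j + 1) ≠ q i j) (n4 : ∀ i j, q i (j + 1) ≠ q (i + 1) j) :
    ∃ i j, (H i (j - 1) (q (i - 1) j) + H i j (q (i - 1) j))
      - (H i (j - 1) (q (i + 1) j) + H i j (q (i + 1) j))
      + (V (i - 1) j (q i (j + 1)) + V i j (q i (j + 1)))
      - (V (i - 1) j (q i (j - 1)) + V i j (q i (j - 1))) ≠ 0 := by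
  classical
  by_contra hcon
  push Not at hcon
  -- the quads
  have hXY : ∀ i j, ∃ k : ℤ, (H (i + 1) j (q i j) - H i j (q (i + 1) j))
      + (V i j (q i (j + 1)) - V i (j + 1) (q i j)) = (2 * k + 1) * (Real.pi * I) := by
    intro i j
    apply exp_eq_neg_one
    have a1 := eH (i + 1) j (q i j) (Or.inr (by rw [add_sub_cancel_right]))
    have a2 := eH i j (q (i + 1) j) (Or.inl rfl)
    have a3 := eV i j (q i (j + 1)) (Or.inl rfl)
    have a4 := eV i (j + 1) (q i j) (Or.inr (by rw [add_sub_cancel_right]))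
    rw [exp_add, exp_sub, exp_sub, a1, a2, a3, a4]
    have b1 := sub_ne_zero.2 (n1 i j)
    have b2 := sub_ne_zero.2 (n2 i j)
    have b3 := sub_ne_zero.2 (n3 i j)
    have b4 := sub_ne_zero.2 (n4 i j)
    have b1' := sub_ne_zero.2 (n1 i j).symm
    have b2' := sub_ne_zero.2 (n2 i j).symm
    have b4' := sub_ne_zero.2 (n4 i j).symm
    field_simp
    ring
  choose k hk using hXY
  have hsum : ∑ i, ∑ j, ((H i (j - 1) (q (i - 1) j) + H i j (q (i - 1) j))
      - (H i (j - 1) (q (i + 1) j) + H i j (q (i + 1) j))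
      + (V (i - 1) j (q i (j + 1)) + V i j (q i (j + 1)))
      - (V (i - 1) j (q i (j - 1)) + V i j (q i (j - 1)))) = 0 := by
    apply Finset.sum_eq_zero
    intro i _
    apply Finset.sum_eq_zero
    intro j _
    exact hcon i j
  -- shifts
  have shi : ∀ f : ZMod s → ZMod t → ℂ, ∑ i, ∑ j, f (i - 1) j = ∑ i, ∑ j, f i j := by
    intro f
    exact (Equiv.subRight (1 : ZMod s)).sum_comp (fun i => ∑ j, f i j)
  have shj : ∀ f : ZMod s → ZMod t → ℂ, ∑ i, ∑ j, f i (j - 1) = ∑ i, ∑ j, f i j := by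
    intro f
    apply Finset.sum_congr rfl
    intro i _
    exact (Equiv.subRight (1 : ZMod t)).sum_comp (fun j => f i j)
  have hsum2 : ∑ i, ∑ j, (2 * ((H (i + 1) j (q i j) - H i j (q (i + 1) j))
      + (V i j (q i (j + 1)) - V i (j + 1) (q i j)))) = 0 := by
    rw [← hsum]
    simp only [Finset.sum_add_distrib, Finset.sum_sub_distrib]
    have c1 := shi (fun i j => H (i + 1) (j - 1) (q i j))
    have c1' := shj (fun i j => H (i + 1) j (q i (j + 1)))
    have c2 := shi (fun i j => H (i + 1) j (q i j))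
    have c3 := shj (fun i j => H i j (q (i + 1) (j + 1)))
    have d1 := shi (fun i j => V i j (q (i + 1) (j + 1)))
    have d2 := shi (fun i j => V i j (q (i + 1) (j - 1)))
    have d2' := shj (fun i j => V i (j + 1) (q (i + 1) j))
    have d3 := shj (fun i j => V i (j + 1) (q i j))
    simp only [sub_add_cancel] at c1 c1' c2 c3 d1 d2 d2' d3
    rw [c1, c1', c2, c3, d1, d2, d2', d3]
    have eq : ∀ i j, 2 * ((H (i + 1) j (q i j) - H i j (q (i + 1) j))
      + (V i j (q i (j + 1)) - V i (j + 1) (q i j))) =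
      (H (i + 1) j (q i (j + 1)) + H (i + 1) j (q i j))
      - (H i j (q (i + 1) (j + 1)) + H i j (q (i + 1) j))
      + (V i j (q (i + 1) (j + 1)) + V i j (q i (j + 1)))
      - (V i (j + 1) (q (i + 1) j) + V i (j + 1) (q i j)) := by
      intro i j
      linear_combination hV i j - hH i j
    simp only [eq, Finset.sum_add_distrib, Finset.sum_sub_distrib]
  have h3 : ∑ i, ∑ j, ((2 * (k i j : ℂ) + 1)) = 0 := by
    have h4 : ∑ i, ∑ j, (2 * ((2 * (k i j : ℂ) + 1) * (Real.pi * I))) = 0 := by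
      rw [← hsum2]
      apply Finset.sum_congr rfl
      intro i _
      apply Finset.sum_congr rfl
      intro j _
      rw [hk i j]
    have h5 : (∑ i, ∑ j, ((2 * (k i j : ℂ) + 1))) * (2 * (Real.pi * I)) = 0 := by
      rw [← h4, Finset.sum_mul]
      apply Finset.sum_congr rfl
      intro i _
      rw [Finset.sum_mul]
      apply Finset.sum_congr rfl
      intro j _
      ring
    have hpi : (2 * (Real.pi * I) : ℂ) ≠ 0 := by
      simp [Real.pi_ne_zero]
    exact (mul_eq_zero.1 h5).resolve_right hpi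
  have h6 : ∑ i : ZMod s, ∑ j : ZMod t, ((2 * (k i j) + 1)) = 0 := by
    exact_mod_cast h3
  have h7 : Odd (∑ i : ZMod s, ∑ j : ZMod t, ((2 * (k i j) + 1))) := by
    have : ∑ i : ZMod s, ∑ j : ZMod t, ((2 * (k i j) + 1)) =
        2 * (∑ i : ZMod s, ∑ j : ZMod t, k i j) + s * t := by
      simp only [Finset.sum_add_distrib, ← Finset.mul_sum, Finset.sum_const, Finset.card_univ,
        ZMod.card, nsmul_eq_mul, mul_one]
    rw [this]
    apply Even.add_odd (even_two_mul _)
    exact_mod_cast hs.mul ht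
  rw [h6] at h7
  exact absurd h7 (by decide)

end Vale.Agent.P305.H136.DS
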